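import Vale.Agent.Lib.P335.SplitMix
import Vale.Agent.Lib.P335.H15.ThreeRow

/-!
# P335: rapid mixing of the switch chain for all split degree sequences

If a degree vector `d` on `n ≥ 4` vertices has one realization that is a split graph
(a set `U` of vertices spans a clique and its complement spans no edge), then the lazy
switch chain on the set `Omega d` of all simple graphs with degree sequence `d` is within
total variation distance `1/4` of the uniform distribution after `n^6` steps, from every
start; in particular `tmix d ≤ n^6`.

The proof shows that the unit-weight switch Laplacian of such a class has spectral gap at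
least `2`: the class is a class of zero-one tables with fixed margins, and the gap is obtained
from the gap of two-row classes (a Johnson graph computation) by a recursion over the rows
whose base case is a three-row inequality.
-/

open Vale.Agent.Lib.P335 in
open Classical in
theorem Vale.Agent.Results.P335.SplitRapidMixing.result :
    ∀ (n : ℕ) (d : Fin n → ℕ) (U : Finset (Fin n)) (G₀ : Omega d), 4 ≤ n →
      (∀ u ∈ U, ∀ u' ∈ U, u ≠ u' → s(u, u') ∈ G₀.1) →
      (∀ w, w ∉ U → ∀ w', w' ∉ U → s(w, w') ∉ G₀.1) →
      (∀ (t : ℕ), n ^ 6 ≤ t →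
          ∀ G : Omega d, tvDist ((switchMatrix d ^ t) G) (unifDist d) ≤ 1 / 4)
      ∧ tmix d ≤ n ^ 6 := by
  intro n d U G₀ hn h1 h2
  have hS₀ : IsSplit U G₀.1 :=
    ⟨G₀.2.1, h1, fun w hw w' hw' =>
      h2 w (Finset.mem_compl.mp hw) w' (Finset.mem_compl.mp hw')⟩
  have hsplit : ∀ G : Omega d, IsSplit U G.1 := all_split_of_one G₀ hS₀
  have key : ∀ (t : ℕ), n ^ 6 ≤ t →
      ∀ G : Omega d, tvDist ((switchMatrix d ^ t) G) (unifDist d) ≤ 1 / 4 :=
    fun t ht G => split_tv_of_bip hn d U hsplit
      (fun F hF => Vale.Agent.Lib.P335.H15.bip_poincare F hF) t ht G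
  refine ⟨key, ?_⟩
  unfold tmix
  apply Nat.sInf_le
  intro G
  exact key _ (le_refl _) G
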