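import Vale.Agent.Lib.P335.GraphMix
import Vale.Agent.Lib.P335.H15.Triple
import Vale.Agent.Lib.P335.H5.GraphPI
import Vale.Agent.Lib.P335.H23.J2Final

/-!
# P335: the switch chain mixes rapidly for every degree sequence

For every `n ≥ 4` and every degree vector `d` on `n` vertices, the lazy switch chain on the
set `Omega d` of simple graphs with degree sequence `d` is within total variation distance
`1/4` of the uniform distribution after `n^6` steps, from every start; in particular
`tmix d ≤ n^6`. This settles the Kannan-Tetali-Vempala conjecture for simple graphs in the
affirmative.

The proof shows that the unit-weight switch Laplacian has spectral gap at least `2`.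
Writing `gavg W` for the conditional expectation given the graph off the vertex set `W`, the
operator `X = ∑ (1 - gavg b)` over all vertex pairs `b` is dominated by the switch Laplacian
(a Johnson graph computation inside each pair class) and satisfies `X² ≥ 2 X`: pairs inside a
common triple are handled by a three-row inequality for zero-one tables, and two disjoint
pairs by a pair inequality combined with a Johnson-type inequality.
-/

open Vale.Agent.Lib.P335 in
open Classical in
theorem Vale.Agent.Results.P335.SwitchChainRapidMixing.result :
    ∀ (n : ℕ) (d : Fin n → ℕ), 4 ≤ n →
      (∀ (t : ℕ), n ^ 6 ≤ t →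
          ∀ G : Omega d, tvDist ((switchMatrix d ^ t) G) (unifDist d) ≤ 1 / 4)
      ∧ tmix d ≤ n ^ 6 := by
  intro n d hn
  exact graph_mix_of d hn
    (fun u v w huv huw hvw f => H15.graph_three_row u v w huv huw hvw f)
    (fun b c f => Gr.fenergy b c f)
    (fun b c f => Gr.kap b c (f - Gr.gavg b f))
    (fun f b hb c hc hdis => H5.graph_PI b c (Finset.mem_powersetCard.mp hb).2
      (Finset.mem_powersetCard.mp hc).2 hdis f)
    (fun f b hb => H23.graph_J2 b (Finset.mem_powersetCard.mp hb).2 f)
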