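import Vale.Agent.Lib.P335.Main

/-!
# P335: an explicit universal mixing bound for the switch chain

For every `n ≥ 4` and every degree vector `d` on `n` vertices, the lazy switch chain on the
set `Omega d` of simple graphs with degree sequence `d` is within total variation distance
`1/4` of the uniform distribution after `8 * n^8 * |Omega d|^2` steps, from every start.
-/

open Vale.Agent.Lib.P335 in
open Classical in
theorem Vale.Agent.Results.P335.SwitchMixingBound.result :
    ∀ (n : ℕ) (d : Fin n → ℕ), 4 ≤ n →
      (∀ (t : ℕ), 8 * n ^ 8 * (Fintype.card (Omega d)) ^ 2 ≤ t →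
          ∀ G : Omega d, tvDist ((switchMatrix d ^ t) G) (unifDist d) ≤ 1 / 4)
      ∧ tmix d ≤ 8 * n ^ 8 * (Fintype.card (Omega d)) ^ 2 := by
  intro n d hn
  exact ⟨fun t ht G => switch_tv hn d t ht G, tmix_le hn d⟩
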