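import Vale.Agent.Lib.P335.GraphMix
import Vale.Agent.Lib.P335.H15.Triple
import Vale.Agent.Lib.P335.H5.GraphPI
import Vale.Agent.Lib.P335.H23.J2Final

/-!
# P335: spectral gap of the switch graph and mixing of the switch chain, all degree sequences

For every `n ≥ 4` and every degree vector `d` on `n` vertices, on the set `Omega d` of simple
graphs with degree sequence `d`:

1. every `f : Omega d → ℝ` with zero sum satisfies `4 ∑ f(G)² ≤ ∑ (f(G) - f(G'))²`, the right
   side summed over ordered pairs of graphs that differ by one switch (`H23.switchEnergy`), i.e.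
   the second eigenvalue of the unit-weight switch Laplacian is at least `2`;
2. the lazy switch chain is within total variation distance `1/4` of the uniform distribution
   at every time `t ≥ n⁴ (ln |Omega d| + 2)`, from every start;
3. in particular at every time `t ≥ n⁶`;
4. `tmix d ≤ n⁶`.

Parts 3 and 4 are the statement of the hand-in `SwitchChainRapidMixing`; parts 1 and 2 are the
sharper forms that its proof gives.
-/

open Vale.Agent.Lib.P335 in
open Classical in
theorem Vale.Agent.Results.P335.SwitchSpectralGap.result :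
    ∀ (n : ℕ) (d : Fin n → ℕ), 4 ≤ n →
      (∀ f : Omega d → ℝ, ∑ G, f G = 0 → 4 * ∑ G, f G ^ 2 ≤ H23.switchEnergy d f)
      ∧ (∀ (t : ℕ), (n : ℝ) ^ 4 * (Real.log (Fintype.card (Omega d) : ℝ) + 2) ≤ (t : ℝ) →
          ∀ G : Omega d, tvDist ((switchMatrix d ^ t) G) (unifDist d) ≤ 1 / 4)
      ∧ (∀ (t : ℕ), n ^ 6 ≤ t →
          ∀ G : Omega d, tvDist ((switchMatrix d ^ t) G) (unifDist d) ≤ 1 / 4)
      ∧ tmix d ≤ n ^ 6 := by
  intro n d hn
  have hpoin : ∀ f : Omega d → ℝ, ∑ G, f G = 0 →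
      4 * ∑ G, f G ^ 2 ≤ H23.switchEnergy d f :=
    fun f hf => H22.graph_poincare_of_PI
      (fun u v w huv huw hvw g => H15.graph_three_row u v w huv huw hvw g)
      (fun b c g => Gr.fenergy b c g) (fun b c g => Gr.kap b c g)
      (fun b c hb hc hdis g => H5.graph_PI b c hb hc hdis g)
      (fun b hb g => H23.graph_J2 b hb g) f hf
  refine ⟨hpoin, ?_, fun t ht G => switch_tv_n6 hn d hpoin t ht G, ?_⟩
  · intro t ht G
    have hn4r : (4 : ℝ) ≤ n := by exact_mod_cast hn
    have hn4pos : (0 : ℝ) < (n : ℝ) ^ 4 := by positivity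
    have hγ0 : 0 < 4 / (n : ℝ) ^ 4 := by positivity
    have hγ4 : 4 / (n : ℝ) ^ 4 ≤ 4 := by
      rw [div_le_iff₀ hn4pos]
      have : (1 : ℝ) ≤ (n : ℝ) ^ 4 := one_le_pow₀ (by linarith)
      linarith
    have hpoin' : ∀ f : Omega d → ℝ, ∑ G, f G = 0 →
        4 / (n : ℝ) ^ 4 * ∑ G, f G ^ 2 ≤ dform (Qker d) f := by
      intro f hf
      have h1 := hpoin f hf
      have h2 := H23.switchEnergy_le_dform hn d f
      calc 4 / (n : ℝ) ^ 4 * ∑ G, f G ^ 2 = (4 * ∑ G, f G ^ 2) / (n : ℝ) ^ 4 := by ring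
        _ ≤ H23.switchEnergy d f / (n : ℝ) ^ 4 := div_le_div_of_nonneg_right h1 hn4pos.le
        _ ≤ dform (Qker d) f := h2
    have ht' : (4 / (4 / (n : ℝ) ^ 4)) * (Real.log (Fintype.card (Omega d) : ℝ) + 2) ≤ t := by
      have h3 : 4 / (4 / (n : ℝ) ^ 4) = (n : ℝ) ^ 4 := by field_simp
      rw [h3]
      exact ht
    exact H23.lazy_chain_tv_exp (Qker d) (Qker_symm d) (Qker_nonneg d) (Qker_row hn d)
      (4 / (n : ℝ) ^ 4) hγ0 hγ4 hpoin' (switchMatrix d) (fun x y => rfl) t ht' G
  · exact H22.tmix_le_of_tv (n ^ 6) (fun t ht G => switch_tv_n6 hn d hpoin t ht G)
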